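import Vale.Agent.P100.Final

namespace Vale.Agent.Results.P100.HLE

/-- The Hénon-Lane-Emden conjecture: no positive entire solution for subcritical parameters. -/
theorem result (n : ℕ) (hn : 2 ≤ n) (p q A B : ℝ) (hp : 0 < p) (hq : 0 < q)
    (hsub : ((n : ℝ) + A) / (p + 1) + ((n : ℝ) + B) / (q + 1) > (n : ℝ) - 2) :
    ¬ ∃ u v : EuclideanSpace ℝ (Fin n) → ℝ,
      Continuous u ∧ Continuous v ∧
      ContDiffOn ℝ 2 u {0}ᶜ ∧ ContDiffOn ℝ 2 v {0}ᶜ ∧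
      (∀ x, 0 < u x) ∧ (∀ x, 0 < v x) ∧
      (∀ x, x ≠ 0 → -Laplacian.laplacian u x = ‖x‖ ^ A * v x ^ p) ∧
      (∀ x, x ≠ 0 → -Laplacian.laplacian v x = ‖x‖ ^ B * u x ^ q) := by
  rintro ⟨u, v, cu, cv, du, dv, pu, pv, eu, ev⟩
  exact Vale.Agent.P100.no_solution (by simpa using hn) hp hq (by simpa using hsub)
    cu cv du dv pu pv eu ev

end Vale.Agent.Results.P100.HLE
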